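import Vale.Agent.P032.S5.H555.Penta

/-!
# P032: the letters of a circle, no cleanness (row R-b)

`S` = unit circle about `z`, `q` a point of `S` near which `T` is constant on `S`.
`arc_le_three` : `|T q| ≤ 3`.
`letter_arc` : a colour of `T q` is missing at `z`, or `T q ⊆ T z` has two or three colours and at
least two colours of `T z` are missing in `T q`.
`letter_three` : `|T z| ≤ 3`: every point of `S` has a colour missing at `z`.
`letter_four`, `pairs_four` : `|T z| = 4`: complementary pairs `P`, `Q`, every point of `S` has a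
colour missing at `z` or contains `P` or contains `Q`.
`letter_five` : `|T z| = 5`: the same with the diagonals of a pentagon, or with the edges of a
triangle and the complementary pair.
-/

open Set Filter Topology Metric

noncomputable section

namespace Vale.Agent.P032.H338

open Vale.Agent.P032.Six

variable {U : Fin 6 → Set ℂ} {T : ℂ → Set (Fin 6)} {z q y : ℂ}

/-- a palette which is constant on an arc of a unit circle has at most three colours -/
theorem arc_le_three (h : Irr U T) (hq : dist q z = 1)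
    (hc : ∀ᶠ q' in 𝓝[sphere z 1] q, T q' = T q) : (T q).ncard ≤ 3 := by
  obtain ⟨v, hv, hvs⟩ := mem_nhdsWithin_iff_exists_mem_nhds_inter.1 hc
  obtain ⟨δ, hδ, hball⟩ := Metric.mem_nhds_iff.1 hv
  obtain ⟨p, hp1, hp2, hp3⟩ := h.td_circle555 (z := q) (v := z) (by rw [dist_comm]; exact hq) hδ
  have h1 : T p = T q := hvs ⟨hball hp2, hp1⟩
  rw [← h1]; exact hp3

/-- a point of the circle with palette inside `T z` has at least two colours -/
theorem two_le_of_sub (h : Irr U T) (hq : dist q z = 1) (hsub : T q ⊆ T z) :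
    2 ≤ (T q).ncard := by
  by_contra hcon
  have h1 : (T q).ncard ≤ 1 := by omega
  obtain ⟨i, hi⟩ := h.ne q
  have h2 : T q ⊆ {i} := fun m hm => (Set.ncard_le_one (Set.toFinite _)).1 h1 m hm i hi
  exact h.mx.notMem' (h.mem_of_single h2) hq (h.sub z (hsub hi))

theorem mem_XX_of_sub (h : Irr U T) (hq : dist q z = 1) (hsub : T q ⊆ T z) : z ∈ XX U := by
  obtain ⟨i, hi⟩ := h.ne q
  exact h.mem_XX (by rw [dist_comm]; exact hq) (hsub hi) (h.sub q hi)

/-- **Letters, general form.** -/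
theorem letter_arc (h : Irr U T) (hq : dist q z = 1)
    (hc : ∀ᶠ q' in 𝓝[sphere z 1] q, T q' = T q) :
    (∃ i ∈ T q, i ∉ T z) ∨
      (T q ⊆ T z ∧ 2 ≤ (T q).ncard ∧ (T q).ncard ≤ 3 ∧ 2 ≤ (T z \ T q).ncard) := by
  by_cases hsub : T q ⊆ T z
  · refine Or.inr ⟨hsub, two_le_of_sub h hq hsub, arc_le_three h hq hc, ?_⟩
    exact h.gap_two (mem_XX_of_sub h hq hsub) hq (hc.mono fun q' hq' => by
      rw [← hq']; exact h.sub q')
  · left
    obtain ⟨i, h1, h2⟩ := Set.not_subset.1 hsub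
    exact ⟨i, h1, h2⟩

/-- **Order at most three.** -/
theorem letter_three (h : Irr U T) (h3 : (T z).ncard ≤ 3) (hy : dist y z = 1) :
    ∃ i ∈ T y, i ∉ T z := h.not_sub' hy h3

/-- **Order four**: generic palettes -/
theorem letter_four (h : Irr U T) (h4 : (T z).ncard = 4) (hq : dist q z = 1)
    (hc : ∀ᶠ q' in 𝓝[sphere z 1] q, T q' = T q) :
    (∃ i ∈ T q, i ∉ T z) ∨ (T q ⊆ T z ∧ (T q).ncard = 2) := by
  rcases letter_arc h hq hc with h1 | ⟨h1, h2, -, h3⟩
  · exact Or.inl h1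
  · refine Or.inr ⟨h1, ?_⟩
    have := Set.ncard_sdiff h1 (Set.toFinite _)
    omega

/-- an exact arc near every point of the circle with palette inside `T z`, order four -/
theorem exists_pair_four (h : Irr U T) (h4 : (T z).ncard = 4) (hy : dist y z = 1)
    (hsub : T y ⊆ T z) : ∃ p, Arc T z p (T p) ∧ T p ⊆ T y ∧ (T p).ncard = 2 := by
  obtain ⟨p, -, hp, hc, h1, h2, h3⟩ := h.arc_of_sub hy hsub univ_mem
  refine ⟨p, ⟨hp, hc⟩, h1, ?_⟩
  have := Set.ncard_sdiff (h1.trans hsub) (Set.toFinite _)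
  omega

/-- minimality of the palettes with at least four colours (same as `Mn`, any number of colours) -/
def Mn338 {k : ℕ} (U : Fin k → Set ℂ) (T : ℂ → Set (Fin k)) : Prop :=
  ∀ z, 4 ≤ (T z).ncard → ∀ s, s ⊆ T z → s ≠ T z →
    ¬ ∀ᶠ w in 𝓝 z, ∃ i ∈ s, w ∈ U i ∨ (w ∈ XX U ∧ i ∈ Pal U w)

/-- **Order four**: two complementary pairs, every point of the circle -/
theorem pairs_four (h : Irr U T) (hmin : Mn338 U T) (h4 : (T z).ncard = 4) :
    ∃ P Q : Set (Fin 6), P ∪ Q = T z ∧ Disjoint P Q ∧ P.ncard = 2 ∧ Q.ncard = 2 ∧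
      (∀ q, dist q z = 1 → T q ⊆ T z → (T q).ncard = 2 → T q = P ∨ T q = Q) ∧
      ∀ y, dist y z = 1 → (∃ i ∈ T y, i ∉ T z) ∨ P ⊆ T y ∨ Q ⊆ T y := by
  classical
  have compl : ∀ P : Set (Fin 6), P ⊆ T z → P.ncard = 2 → P ∪ (T z \ P) = T z ∧
      Disjoint P (T z \ P) ∧ (T z \ P).ncard = 2 := by
    intro P hP h2
    refine ⟨Set.union_sdiff_cancel hP, Set.disjoint_sdiff_right, ?_⟩
    have := Set.ncard_sdiff hP (Set.toFinite _)
    omega
  by_cases hex : ∃ q, dist q z = 1 ∧ T q ⊆ T z ∧ (T q).ncard = 2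
  · obtain ⟨q0, hq0, hs0, hc0⟩ := hex
    obtain ⟨k1, k2, k3⟩ := compl _ hs0 hc0
    have key : ∀ q, dist q z = 1 → T q ⊆ T z → (T q).ncard = 2 →
        T q = T q0 ∨ T q = T z \ T q0 := by
      intro q hq hs hc
      rcases h.pairs_disjoint hmin h4 hq hq0 hs hs0 hc hc0 with h1 | h1
      · exact Or.inl h1
      · right
        refine Set.eq_of_subset_of_ncard_le (fun i hi => ⟨hs hi, fun h2 =>
          Set.disjoint_left.1 h1 hi h2⟩) (by rw [k3, hc]) (Set.toFinite _)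
    refine ⟨T q0, T z \ T q0, k1, k2, hc0, k3, key, fun y hy => ?_⟩
    by_cases hsub : T y ⊆ T z
    · right
      obtain ⟨p, hp, hp1, hp2⟩ := exists_pair_four h h4 hy hsub
      rcases key p hp.1 (hp1.trans hsub) hp2 with h1 | h1
      · exact Or.inl (h1 ▸ hp1)
      · exact Or.inr (h1 ▸ hp1)
    · left
      obtain ⟨i, h1, h2⟩ := Set.not_subset.1 hsub
      exact ⟨i, h1, h2⟩
  · push Not at hex
    obtain ⟨P, hP, hP2⟩ := Set.exists_subset_card_eq (s := T z) (n := 2) (by omega)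
    obtain ⟨k1, k2, k3⟩ := compl P hP hP2
    refine ⟨P, T z \ P, k1, k2, hP2, k3, fun q hq hs hc => absurd hc (hex q hq hs),
      fun y hy => ?_⟩
    left
    by_contra hcon
    push Not at hcon
    obtain ⟨p, hp, hp1, hp2⟩ := exists_pair_four h h4 hy hcon
    exact hex p hp.1 (hp1.trans hcon) hp2

/-- **Order five**, the graph of the exact pairs: a pentagon, or a triangle and an edge -/
theorem graph_five (h : Irr U T) (hmin : Mn338 U T) (h5 : (T z).ncard = 5) :
    ∃ c : Fin 5 → Fin 6, Function.Injective c ∧ T z = range c ∧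
      ((∀ q, dist q z = 1 → (T q).ncard = 2 → T q ⊆ T z → ∃ i, T q = {c i, c (i + 2)}) ∨
      ∀ q, dist q z = 1 → (T q).ncard = 2 → T q ⊆ T z →
        T q ⊆ {c 0, c 1, c 2} ∨ T q ⊆ {c 3, c 4}) := by
  have hcard : Nat.card (T z) = 5 := by rw [Nat.card_coe_set_eq]; exact h5
  obtain ⟨e⟩ : Nonempty (T z ≃ Fin 5) := ⟨Finite.equivFinOfCardEq hcard⟩
  obtain ⟨g, hg⟩ : ∃ g : Fin 5 → Fin 6, g = fun i => (e.symm i).val := ⟨_, rfl⟩
  have hginj : Function.Injective g := by
    rw [hg]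
    intro i j hij
    exact e.symm.injective (Subtype.ext hij)
  have hgr : T z = range g := by
    rw [hg]
    ext x
    constructor
    · intro hx
      exact ⟨e ⟨x, hx⟩, by simp⟩
    · rintro ⟨i, rfl⟩
      exact (e.symm i).2
  have hgz : ∀ i, g i ∈ T z := fun i => by rw [hgr]; exact mem_range_self i
  obtain ⟨P, hP⟩ : ∃ P : Fin 5 → Fin 5 → Prop, P = fun i j => i ≠ j ∧
      ∃ q, dist q z = 1 ∧ T q = {g i, g j} := ⟨_, rfl⟩
  have hPi : ∀ i j, P i j ↔ i ≠ j ∧ ∃ q, dist q z = 1 ∧ T q = {g i, g j} := by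
    intro i j; rw [hP]
  have symm : ∀ i j, P i j → P j i := by
    intro i j hij
    rw [hPi] at hij ⊢
    obtain ⟨h1, q, h2, h4⟩ := hij
    exact ⟨h1.symm, q, h2, by rw [h4, Set.pair_comm]⟩
  have irr : ∀ i, ¬ P i i := by
    intro i hii
    rw [hPi] at hii
    exact hii.1 rfl
  have deg : ∀ i j k l, P i j → P i k → P i l → j = k ∨ k = l ∨ j = l := by
    intro i j k l h1 h2 h4
    by_contra hcon
    rw [not_or, not_or] at hcon
    obtain ⟨hjk, hkl, hjl⟩ := hcon
    rw [hPi] at h1 h2 h4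
    obtain ⟨hij, q1, hq1, hT1⟩ := h1
    obtain ⟨hik, q2, hq2, hT2⟩ := h2
    obtain ⟨hil, q3, hq3, hT3⟩ := h4
    obtain ⟨d, e', hd, he, hdi, hei, hde, hdq, heq⟩ := h.two_contacts hmin (by omega) (hgz i)
    rw [hgr] at hd he
    obtain ⟨a, rfl⟩ := hd
    obtain ⟨b, rfl⟩ := he
    refine Six.Irr.six_of_five555 hij hik hil (a := a) (b := b) (fun h1 => hdi (by rw [h1]))
      (fun h1 => hei (by rw [h1])) hjk hjl ?_ ?_ hkl ?_ ?_ ?_ ?_ (fun h1 => hde (by rw [h1]))
    · rintro rfl; exact hdq q1 hq1 hT1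
    · rintro rfl; exact heq q1 hq1 hT1
    · rintro rfl; exact hdq q2 hq2 hT2
    · rintro rfl; exact heq q2 hq2 hT2
    · rintro rfl; exact hdq q3 hq3 hT3
    · rintro rfl; exact heq q3 hq3 hT3
  obtain ⟨s, hs, hcase⟩ := Words.G555.graph5 symm irr deg
  have hss : Function.Surjective s := Finite.surjective_of_injective hs
  obtain ⟨c, hc⟩ : ∃ c : Fin 5 → Fin 6, c = fun i => g (s i) := ⟨_, rfl⟩
  have hci : ∀ i, c i = g (s i) := fun i => by rw [hc]
  have hcinj : Function.Injective c := by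
    intro i j hij
    rw [hci, hci] at hij
    exact hs (hginj hij)
  have hcr : T z = range c := by
    rw [hgr]
    ext x
    constructor
    · rintro ⟨i, rfl⟩
      obtain ⟨j, rfl⟩ := hss i
      exact ⟨j, hci j⟩
    · rintro ⟨i, rfl⟩
      exact ⟨s i, (hci i).symm⟩
  have hcz : ∀ i, c i ∈ T z := fun i => by rw [hcr]; exact mem_range_self i
  have hPc : ∀ i j, P (s i) (s j) ↔ i ≠ j ∧ ∃ q, dist q z = 1 ∧ T q = {c i, c j} := by
    intro i j
    rw [hPi, ← hci, ← hci]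
    exact and_congr_left fun _ => hs.ne_iff
  have hpair : ∀ q, (T q).ncard = 2 → T q ⊆ T z → ∃ i j, i ≠ j ∧ T q = {c i, c j} := by
    intro q h1 h2
    obtain ⟨x, y, hxy, hTq⟩ := Set.ncard_eq_two.1 h1
    have hx : x ∈ T z := h2 (by rw [hTq]; simp)
    have hy : y ∈ T z := h2 (by rw [hTq]; simp)
    rw [hcr] at hx hy
    obtain ⟨i, rfl⟩ := hx
    obtain ⟨j, rfl⟩ := hy
    exact ⟨i, j, fun h4 => hxy (by rw [h4]), hTq⟩
  have hmem5 : ∀ x, x ∈ T z → x = c 0 ∨ x = c 1 ∨ x = c 2 ∨ x = c 3 ∨ x = c 4 := by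
    intro x hx
    rw [hcr] at hx
    obtain ⟨i, rfl⟩ := hx
    have key : ∀ i : Fin 5, i = 0 ∨ i = 1 ∨ i = 2 ∨ i = 3 ∨ i = 4 := by decide
    rcases key i with rfl | rfl | rfl | rfl | rfl
    · exact Or.inl rfl
    · exact Or.inr (Or.inl rfl)
    · exact Or.inr (Or.inr (Or.inl rfl))
    · exact Or.inr (Or.inr (Or.inr (Or.inl rfl)))
    · exact Or.inr (Or.inr (Or.inr (Or.inr rfl)))
  refine ⟨c, hcinj, hcr, ?_⟩
  rcases hcase with hcase | hcase | hcase
  · -- the pentagon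
    left
    intro q hq h1 h2
    obtain ⟨i, j, hij, hTq⟩ := hpair q h1 h2
    have hfin : ∀ i j : Fin 5, i ≠ j → j = i + 1 ∨ i = j + 1 ∨ j = i + 2 ∨ i = j + 2 := by decide
    rcases hfin i j hij with rfl | rfl | rfl | rfl
    · exact absurd ((hPc _ _).2 ⟨hij, q, hq, hTq⟩) (hcase i)
    · refine absurd ((hPc _ _).2 ⟨hij.symm, q, hq, ?_⟩) (hcase j)
      rw [hTq, Set.pair_comm]
    · exact ⟨i, hTq⟩
    · exact ⟨j, by rw [hTq, Set.pair_comm]⟩
  · -- the four cycle
    exfalso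
    obtain ⟨h01, h12, h23, h30⟩ := hcase
    rw [hPc] at h01 h12 h23 h30
    refine h.no_cut hmin (z := z) (x := c 4) (A := {c 0, c 2}) (B := {c 1, c 3}) (by omega) ?_ ?_ ?_
      ?_ ⟨c 0, Or.inl rfl⟩ ⟨c 1, Or.inl rfl⟩ ?_ ?_
    · ext x
      constructor
      · intro hx
        rcases hmem5 x hx with rfl | rfl | rfl | rfl | rfl <;> simp
      · rintro (rfl | (rfl | rfl) | (rfl | rfl)) <;> exact hcz _
    · simp [hcinj.eq_iff]
    · simp [hcinj.eq_iff]
    · rw [Set.disjoint_left]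
      rintro x (rfl | rfl) <;> simp [hcinj.eq_iff]
    · exact (Set.ncard_insert_le _ _).trans (by rw [Set.ncard_singleton])
    · rintro a (rfl | rfl) b (rfl | rfl)
      · exact h01.2
      · obtain ⟨-, q, hq, hTq⟩ := h30
        exact ⟨q, hq, by rw [hTq, Set.pair_comm]⟩
      · obtain ⟨-, q, hq, hTq⟩ := h12
        exact ⟨q, hq, by rw [hTq, Set.pair_comm]⟩
      · exact h23.2
  · -- triangle and edge
    right
    intro y hy h1 h2
    obtain ⟨i, j, hij, hTq⟩ := hpair y h1 h2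
    have hlow : ∀ i : Fin 5, i.val < 3 → c i ∈ ({c 0, c 1, c 2} : Set (Fin 6)) := by
      intro i hi
      have key : ∀ i : Fin 5, i.val < 3 → i = 0 ∨ i = 1 ∨ i = 2 := by decide
      rcases key i hi with rfl | rfl | rfl <;> simp
    have hhigh : ∀ i : Fin 5, ¬ i.val < 3 → i = 3 ∨ i = 4 := by decide
    by_cases hi : i.val < 3
    · by_cases hj : j.val < 3
      · left
        rw [hTq]
        rintro x (rfl | rfl)
        · exact hlow i hi
        · exact hlow j hj
      · exfalso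
        obtain ⟨k1, k2⟩ := hcase i hi
        rcases hhigh j hj with rfl | rfl
        · exact k1 ((hPc _ _).2 ⟨hij, y, hy, hTq⟩)
        · exact k2 ((hPc _ _).2 ⟨hij, y, hy, hTq⟩)
    · by_cases hj : j.val < 3
      · exfalso
        obtain ⟨k1, k2⟩ := hcase j hj
        rcases hhigh i hi with rfl | rfl
        · exact k1 ((hPc _ _).2 ⟨hij.symm, y, hy, by rw [hTq, Set.pair_comm]⟩)
        · exact k2 ((hPc _ _).2 ⟨hij.symm, y, hy, by rw [hTq, Set.pair_comm]⟩)
      · right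
        rw [hTq]
        rintro x (rfl | rfl)
        · rcases hhigh i hi with rfl | rfl <;> simp
        · rcases hhigh j hj with rfl | rfl <;> simp

/-- index sets of subsets of the range -/
theorem exists_index {c : Fin 5 → Fin 6} (hinj : Function.Injective c) {P : Set (Fin 6)}
    (hP : P ⊆ range c) : ∃ S : Finset (Fin 5), S.card = P.ncard ∧ ∀ i, i ∈ S ↔ c i ∈ P := by
  classical
  refine ⟨Finset.univ.filter fun i => c i ∈ P, ?_, fun i => by simp⟩
  have h1 : c '' ((Finset.univ.filter fun i => c i ∈ P : Finset (Fin 5)) : Set (Fin 5)) = P := by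
    ext x
    constructor
    · rintro ⟨i, hi, rfl⟩
      simpa using hi
    · intro hx
      obtain ⟨i, rfl⟩ := hP hx
      exact ⟨i, by simpa using hx, rfl⟩
  conv_rhs => rw [← h1]
  rw [Set.ncard_image_of_injective _ hinj, Set.ncard_coe_finset]

/-- **Order five, letters**: every point of the circle -/
theorem letter_five (h : Irr U T) (hmin : Mn338 U T) (h5 : (T z).ncard = 5) :
    ∃ c : Fin 5 → Fin 6, Function.Injective c ∧ T z = range c ∧
      ((∀ y, dist y z = 1 → (∃ i ∈ T y, i ∉ T z) ∨ ∃ i, {c i, c (i + 2)} ⊆ T y) ∨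
      ∀ y, dist y z = 1 → (∃ i ∈ T y, i ∉ T z) ∨ {c 0, c 1} ⊆ T y ∨ {c 1, c 2} ⊆ T y ∨
        {c 0, c 2} ⊆ T y ∨ {c 3, c 4} ⊆ T y) := by
  obtain ⟨c, hc, hr, hcase⟩ := graph_five h hmin h5
  refine ⟨c, hc, hr, ?_⟩
  have key1 : ∀ S : Finset (Fin 5), 3 ≤ S.card → ∃ i, i ∈ S ∧ i + 2 ∈ S := by decide +kernel
  have key2 : ∀ S : Finset (Fin 5), 3 ≤ S.card → (0 ∈ S ∧ 1 ∈ S) ∨ (1 ∈ S ∧ 2 ∈ S) ∨
      (0 ∈ S ∧ 2 ∈ S) ∨ (3 ∈ S ∧ 4 ∈ S) := by decide +kernel
  have key3 : ∀ S : Finset (Fin 5), S.card = 2 → (∀ i ∈ S, i = 0 ∨ i = 1 ∨ i = 2) →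
      (0 ∈ S ∧ 1 ∈ S) ∨ (1 ∈ S ∧ 2 ∈ S) ∨ (0 ∈ S ∧ 2 ∈ S) := by decide +kernel
  have key4 : ∀ S : Finset (Fin 5), S.card = 2 → (∀ i ∈ S, i = 3 ∨ i = 4) →
      3 ∈ S ∧ 4 ∈ S := by decide +kernel
  have pr : ∀ {i j : Fin 5} {y : ℂ} {S : Finset (Fin 5)}, (∀ i, i ∈ S ↔ c i ∈ T y) →
      i ∈ S → j ∈ S → ({c i, c j} : Set (Fin 6)) ⊆ T y := by
    intro i j y S hS h1 h2
    rintro x (rfl | rfl)
    · exact (hS _).1 h1
    · exact (hS _).1 h2
  rcases hcase with hcase | hcase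
  · left
    intro y hy
    by_cases hsub : T y ⊆ T z
    · right
      rcases Nat.lt_or_ge (T y).ncard 3 with h3 | h3
      · have h2 := two_le_of_sub h hy hsub
        obtain ⟨i, hi⟩ := hcase y hy (by omega) hsub
        exact ⟨i, hi.ge⟩
      · obtain ⟨S, hS, hSi⟩ := exists_index hc (hsub.trans hr.subset)
        obtain ⟨i, h1, h2⟩ := key1 S (by omega)
        exact ⟨i, pr hSi h1 h2⟩
    · left
      obtain ⟨i, h1, h2⟩ := Set.not_subset.1 hsub
      exact ⟨i, h1, h2⟩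
  · right
    intro y hy
    by_cases hsub : T y ⊆ T z
    · right
      obtain ⟨S, hS, hSi⟩ := exists_index hc (hsub.trans hr.subset)
      rcases Nat.lt_or_ge (T y).ncard 3 with h3 | h3
      · have h2 := two_le_of_sub h hy hsub
        rcases hcase y hy (by omega) hsub with h4 | h4
        · rcases key3 S (by omega) (fun i hi => by
            rcases h4 ((hSi i).1 hi) with h5 | h5 | h5
            · exact Or.inl (hc h5)
            · exact Or.inr (Or.inl (hc h5))
            · exact Or.inr (Or.inr (hc h5))) with h5 | h5 | h5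
          · exact Or.inl (pr hSi h5.1 h5.2)
          · exact Or.inr (Or.inl (pr hSi h5.1 h5.2))
          · exact Or.inr (Or.inr (Or.inl (pr hSi h5.1 h5.2)))
        · have h5 := key4 S (by omega) (fun i hi => by
            rcases h4 ((hSi i).1 hi) with h5 | h5
            · exact Or.inl (hc h5)
            · exact Or.inr (hc h5))
          exact Or.inr (Or.inr (Or.inr (pr hSi h5.1 h5.2)))
      · rcases key2 S (by omega) with h5 | h5 | h5 | h5
        · exact Or.inl (pr hSi h5.1 h5.2)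
        · exact Or.inr (Or.inl (pr hSi h5.1 h5.2))
        · exact Or.inr (Or.inr (Or.inl (pr hSi h5.1 h5.2)))
        · exact Or.inr (Or.inr (Or.inr (pr hSi h5.1 h5.2)))
    · left
      obtain ⟨i, h1, h2⟩ := Set.not_subset.1 hsub
      exact ⟨i, h1, h2⟩

end Vale.Agent.P032.H338
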