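import Vale.Agent.P032.H338.Letters
import Vale.Agent.P032.S5.H555.Chord

/-!
# P032: the exact pairs at a point with five colours, wild form

No hypothesis on the unit circle about `z`.
-/

open Set Filter Topology Metric

noncomputable section

namespace Vale.Agent.P032.H338

open Vale.Agent.P032.Six

variable {U : Fin 6 → Set ℂ} {T : ℂ → Set (Fin 6)} {z : ℂ}

/-- a triangle and an edge of exact pairs do not occur together: four colours would be needed on the
two rays orthogonal to the edge -/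
theorem no_tri_edge (h : Irr U T) (hmin : Mn338 U T) {a b x y w : Fin 6} (hab : a ≠ b)
    (hz : T z = {a, b} ∪ {x, y, w}) (hax : a ∉ ({x, y, w} : Set (Fin 6)))
    (hbx : b ∉ ({x, y, w} : Set (Fin 6))) (hxy : x ≠ y) (hxw : x ≠ w) (hyw : y ≠ w)
    (h1 : ∃ q, dist q z = 1 ∧ T q = {x, y}) (h2 : ∃ q, dist q z = 1 ∧ T q = {x, w})
    (h3 : ∃ q, dist q z = 1 ∧ T q = {y, w}) (h0 : ∃ q, dist q z = 1 ∧ T q = {a, b}) : False := by
  obtain ⟨q, hq, hT⟩ := h0
  have hcard : 4 ≤ (T z).ncard := by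
    rw [hz, Set.ncard_union_eq (by
      rw [Set.disjoint_left]; rintro i (rfl | rfl)
      · exact hax
      · exact hbx) (Set.toFinite _) (Set.toFinite _), Set.ncard_pair hab,
      Set.ncard_insert_of_notMem (by simp [hxy, hxw]), Set.ncard_pair hyw]
    norm_num
  -- general form
  have key : ∀ u v s : Fin 6, T z = {a, b} ∪ ({u} ∪ {v, s}) → a ∉ ({u, v, s} : Set (Fin 6)) →
      b ∉ ({u, v, s} : Set (Fin 6)) → u ≠ v → u ≠ s → (∃ q, dist q z = 1 ∧ T q = {u, v}) →
      (∃ q, dist q z = 1 ∧ T q = {u, s}) →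
      (∀ᶠ t : ℝ in 𝓝[>] 0, T (z + t * (Complex.I * (q - z))) ⊆ {u} ∧
        T (z + t * -(Complex.I * (q - z))) ⊆ {v, s}) ∨
      ∀ᶠ t : ℝ in 𝓝[>] 0, T (z + t * (Complex.I * (q - z))) ⊆ {v, s} ∧
        T (z + t * -(Complex.I * (q - z))) ⊆ {u} := by
    intro u v s e1 e2 e3 e4 e5 e6 e7
    simp only [mem_insert_iff, mem_singleton_iff, not_or] at e2 e3
    refine h.nappes555 hmin hcard hab e1 (by simpa using e2.1) (by simpa using e3.1)
      (by simpa using ⟨e2.2.1, e2.2.2⟩) (by simpa using ⟨e3.2.1, e3.2.2⟩) ⟨u, rfl⟩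
      ⟨v, Or.inl rfl⟩ ?_ (by rw [Set.ncard_singleton]; norm_num) ?_ hq hT
    · rw [Set.disjoint_singleton_left]
      simp [e4, e5]
    · rintro i rfl j hj
      rcases hj with rfl | hj
      · exact e6
      · rw [mem_singleton_iff] at hj; subst hj; exact e7
  have perm1 : ({x, y, w} : Set (Fin 6)) = {y, x, w} := by
    ext i; simp only [mem_insert_iff, mem_singleton_iff]; tauto
  have perm2 : ({x, y, w} : Set (Fin 6)) = {w, x, y} := by
    ext i; simp only [mem_insert_iff, mem_singleton_iff]; tauto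
  have s1 : ({x} ∪ {y, w} : Set (Fin 6)) = {x, y, w} := rfl
  have s2 : ({y} ∪ {x, w} : Set (Fin 6)) = {y, x, w} := rfl
  have s3 : ({w} ∪ {x, y} : Set (Fin 6)) = {w, x, y} := rfl
  have swap : ∀ i j : Fin 6, (∃ q, dist q z = 1 ∧ T q = {i, j}) → ∃ q, dist q z = 1 ∧ T q = {j, i} :=
    fun i j ⟨q, h4, h5⟩ => ⟨q, h4, by rw [h5, Set.pair_comm]⟩
  have r1 := key x y w (by rw [s1]; exact hz) hax hbx hxy hxw h1 h2
  have r2 := key y x w (by rw [s2, ← perm1]; exact hz) (by rw [← perm1]; exact hax)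
    (by rw [← perm1]; exact hbx) hxy.symm hyw (swap _ _ h1) h3
  have r3 := key w x y (by rw [s3, ← perm2]; exact hz) (by rw [← perm2]; exact hax)
    (by rw [← perm2]; exact hbx) hxw.symm hyw.symm (swap _ _ h2) (swap _ _ h3)
  have fin : ∀ (m : ℂ), ∀ i j : Fin 6, i ≠ j → (∀ᶠ t : ℝ in 𝓝[>] 0, T (z + t * m) ⊆ {i}) →
      (∀ᶠ t : ℝ in 𝓝[>] 0, T (z + t * m) ⊆ {j}) → False := by
    intro m i j hij k1 k2
    obtain ⟨t, k3, k4⟩ := (k1.and k2).exists
    obtain ⟨l, hl⟩ := h.ne (z + t * m)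
    have e1 := k3 hl
    have e2 := k4 hl
    rw [mem_singleton_iff] at e1 e2
    exact hij (e1.symm.trans e2)
  rcases r1 with r1 | r1 <;> rcases r2 with r2 | r2 <;> rcases r3 with r3 | r3
  · exact fin _ x y hxy (r1.mono fun _ k => k.1) (r2.mono fun _ k => k.1)
  · exact fin _ x y hxy (r1.mono fun _ k => k.1) (r2.mono fun _ k => k.1)
  · exact fin _ x w hxw (r1.mono fun _ k => k.1) (r3.mono fun _ k => k.1)
  · exact fin _ y w hyw (r2.mono fun _ k => k.2) (r3.mono fun _ k => k.2)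
  · exact fin _ y w hyw (r2.mono fun _ k => k.1) (r3.mono fun _ k => k.1)
  · exact fin _ x w hxw (r1.mono fun _ k => k.2) (r3.mono fun _ k => k.2)
  · exact fin _ x y hxy (r1.mono fun _ k => k.2) (r2.mono fun _ k => k.2)
  · exact fin _ x y hxy (r1.mono fun _ k => k.2) (r2.mono fun _ k => k.2)

end Vale.Agent.P032.H338
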