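import Vale.Agent.P032.H338.Five

/-!
# P032: the exact pairs at a point with five colours: pentagon, or a triangle alone

No hypothesis on the unit circle about `z`.
-/

open Set Filter Topology Metric

noncomputable section

namespace Vale.Agent.P032.H338

open Vale.Agent.P032.Six

variable {U : Fin 6 → Set ℂ} {T : ℂ → Set (Fin 6)} {z : ℂ}

/-- from a triangle with a missing edge, and an edge, to a pentagon -/
theorem to_pentagon {z : ℂ} {x y w a b : Fin 6} (hinj : [x, y, w, a, b].Nodup)
    (hz : T z = {x, y, w, a, b})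
    (hp : ∀ q, dist q z = 1 → (T q).ncard = 2 → T q ⊆ T z →
      T q = {x, y} ∨ T q = {y, w} ∨ T q = {a, b}) :
    ∃ c : Fin 5 → Fin 6, Function.Injective c ∧ T z = range c ∧
      ∀ q, dist q z = 1 → (T q).ncard = 2 → T q ⊆ T z → ∃ i, T q = {c i, c (i + 2)} := by
  refine ⟨![x, a, y, b, w], ?_, ?_, ?_⟩
  · simp only [List.nodup_cons, List.mem_cons, List.not_mem_nil, or_false, not_or,
      List.nodup_nil, and_true, not_false_eq_true] at hinj
    obtain ⟨⟨h1, h2, h3, h4⟩, ⟨h5, h6, h7⟩, ⟨h8, h9⟩, h10⟩ := hinj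
    intro i j hij
    fin_cases i <;> fin_cases j <;> first
      | rfl
      | (exfalso; simp at hij; first
          | exact h1 hij | exact h2 hij | exact h3 hij | exact h4 hij | exact h5 hij
          | exact h6 hij | exact h7 hij | exact h8 hij | exact h9 hij | exact h10 hij
          | exact h1 hij.symm | exact h2 hij.symm | exact h3 hij.symm | exact h4 hij.symm
          | exact h5 hij.symm | exact h6 hij.symm | exact h7 hij.symm | exact h8 hij.symm
          | exact h9 hij.symm | exact h10 hij.symm)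
  · rw [hz]
    ext i
    simp only [mem_insert_iff, mem_singleton_iff, mem_range, Fin.exists_fin_succ, Fin.exists_fin_zero]
    simp
    tauto
  · intro q h1 h2 h3
    rcases hp q h1 h2 h3 with h4 | h4 | h4
    · exact ⟨0, by rw [h4]; rfl⟩
    · exact ⟨2, by rw [h4]; rfl⟩
    · exact ⟨1, by rw [h4]; rfl⟩

theorem pair_of_sub3 {x y w : Fin 6} {P : Set (Fin 6)} (h : P ⊆ {x, y, w}) (h2 : P.ncard = 2) :
    P = {x, y} ∨ P = {x, w} ∨ P = {y, w} := by
  obtain ⟨i, j, hij, rfl⟩ := Set.ncard_eq_two.1 h2
  have hi : i = x ∨ i = y ∨ i = w := by simpa using h (show i ∈ ({i, j} : Set (Fin 6)) by simp)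
  have hj : j = x ∨ j = y ∨ j = w := by simpa using h (show j ∈ ({i, j} : Set (Fin 6)) by simp)
  rcases hi with rfl | rfl | rfl <;> rcases hj with rfl | rfl | rfl <;> first
    | exact absurd rfl hij
    | exact Or.inl rfl
    | exact Or.inr (Or.inl rfl)
    | exact Or.inr (Or.inr rfl)
    | exact Or.inl (Set.pair_comm _ _)
    | exact Or.inr (Or.inl (Set.pair_comm _ _))
    | exact Or.inr (Or.inr (Set.pair_comm _ _))

theorem pair_of_sub2 {x y : Fin 6} {P : Set (Fin 6)} (h : P ⊆ {x, y}) (h2 : P.ncard = 2) :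
    P = {x, y} := by
  refine Set.eq_of_subset_of_ncard_le h ?_ (Set.toFinite _)
  rw [h2]
  exact (Set.ncard_insert_le _ _).trans (by rw [Set.ncard_singleton])

/-- **Order five**, the graph of the exact pairs, no hypothesis on the circle: diagonals of one
pentagon, or exactly the three edges of a triangle -/
theorem graph_five' (h : Irr U T) (hmin : Mn338 U T) (h5 : (T z).ncard = 5) :
    ∃ c : Fin 5 → Fin 6, Function.Injective c ∧ T z = range c ∧
      ((∀ q, dist q z = 1 → (T q).ncard = 2 → T q ⊆ T z → ∃ i, T q = {c i, c (i + 2)}) ∨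
      ((∀ q, dist q z = 1 → (T q).ncard = 2 → T q ⊆ T z → T q ⊆ {c 0, c 1, c 2}) ∧
        (∃ q, dist q z = 1 ∧ T q = {c 0, c 1}) ∧ (∃ q, dist q z = 1 ∧ T q = {c 0, c 2}) ∧
        ∃ q, dist q z = 1 ∧ T q = {c 1, c 2})) := by
  obtain ⟨c, hc, hr, hcase⟩ := graph_five h hmin h5
  rcases hcase with hcase | hcase
  · exact ⟨c, hc, hr, Or.inl hcase⟩
  have hz : T z = {c 0, c 1, c 2, c 3, c 4} := by
    rw [hr]
    ext i
    simp only [mem_range, mem_insert_iff, mem_singleton_iff]
    constructor
    · rintro ⟨j, rfl⟩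
      fin_cases j <;> simp
    · rintro (rfl | rfl | rfl | rfl | rfl) <;> exact ⟨_, rfl⟩
  have hne : ∀ i j : Fin 5, i ≠ j → c i ≠ c j := fun i j hij hcon => hij (hc hcon)
  have n01 := hne 0 1 (by decide)
  have n02 := hne 0 2 (by decide)
  have n03 := hne 0 3 (by decide)
  have n04 := hne 0 4 (by decide)
  have n12 := hne 1 2 (by decide)
  have n13 := hne 1 3 (by decide)
  have n14 := hne 1 4 (by decide)
  have n23 := hne 2 3 (by decide)
  have n24 := hne 2 4 (by decide)
  have n34 := hne 3 4 (by decide)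
  have hall : ∀ q, dist q z = 1 → (T q).ncard = 2 → T q ⊆ T z →
      T q = {c 0, c 1} ∨ T q = {c 0, c 2} ∨ T q = {c 1, c 2} ∨ T q = {c 3, c 4} := by
    intro q h1 h2 h3
    rcases hcase q h1 h2 h3 with h4 | h4
    · rcases pair_of_sub3 h4 h2 with h6 | h6 | h6
      · exact Or.inl h6
      · exact Or.inr (Or.inl h6)
      · exact Or.inr (Or.inr (Or.inl h6))
    · exact Or.inr (Or.inr (Or.inr (pair_of_sub2 h4 h2)))
  by_cases e01 : ∃ q, dist q z = 1 ∧ T q = {c 0, c 1}
  · by_cases e02 : ∃ q, dist q z = 1 ∧ T q = {c 0, c 2}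
    · by_cases e12 : ∃ q, dist q z = 1 ∧ T q = {c 1, c 2}
      · -- all three
        by_cases e34 : ∃ q, dist q z = 1 ∧ T q = {c 3, c 4}
        · refine (no_tri_edge h hmin (a := c 3) (b := c 4) (x := c 0) (y := c 1) (w := c 2) n34
            ?_ ?_ ?_ n01 n02 n12 e01 e02 e12 e34).elim
          · rw [hz]
            ext i
            simp only [mem_union, mem_insert_iff, mem_singleton_iff]
            tauto
          · simp [n03.symm, n13.symm, n23.symm]
          · simp [n04.symm, n14.symm, n24.symm]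
        · refine ⟨c, hc, hr, Or.inr ⟨fun q h1 h2 h3 => ?_, e01, e02, e12⟩⟩
          rcases hall q h1 h2 h3 with h4 | h4 | h4 | h4
          · rw [h4]; rintro i (rfl | rfl) <;> simp
          · rw [h4]; rintro i (rfl | rfl) <;> simp
          · rw [h4]; rintro i (rfl | rfl) <;> simp
          · exact absurd ⟨q, h1, h4⟩ e34
      · refine (to_pentagon (x := c 1) (y := c 0) (w := c 2) (a := c 3) (b := c 4) (T := T)
          (z := z) ?_ ?_ ?_).imp fun c' h1 => ⟨h1.1, h1.2.1, Or.inl h1.2.2⟩
        · simp [n01.symm, n12, n13, n14, n02, n03, n04, n23, n24, n34]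
        · rw [hz]
          ext i
          simp only [mem_insert_iff, mem_singleton_iff]
          tauto
        · intro q h1 h2 h3
          rcases hall q h1 h2 h3 with h4 | h4 | h4 | h4
          · exact Or.inl (h4.trans (Set.pair_comm _ _))
          · exact Or.inr (Or.inl h4)
          · exact absurd ⟨q, h1, h4⟩ e12
          · exact Or.inr (Or.inr h4)
    · refine (to_pentagon (x := c 0) (y := c 1) (w := c 2) (a := c 3) (b := c 4) (T := T)
        (z := z) ?_ ?_ ?_).imp fun c' h1 => ⟨h1.1, h1.2.1, Or.inl h1.2.2⟩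
      · simp [n01, n12, n13, n14, n02, n03, n04, n23, n24, n34]
      · exact hz
      · intro q h1 h2 h3
        rcases hall q h1 h2 h3 with h4 | h4 | h4 | h4
        · exact Or.inl h4
        · exact absurd ⟨q, h1, h4⟩ e02
        · exact Or.inr (Or.inl h4)
        · exact Or.inr (Or.inr h4)
  · refine (to_pentagon (x := c 0) (y := c 2) (w := c 1) (a := c 3) (b := c 4) (T := T)
      (z := z) ?_ ?_ ?_).imp fun c' h1 => ⟨h1.1, h1.2.1, Or.inl h1.2.2⟩
    · simp [n01, n12.symm, n13, n14, n02, n03, n04, n23, n24, n34]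
    · rw [hz]
      ext i
      simp only [mem_insert_iff, mem_singleton_iff]
      tauto
    · intro q h1 h2 h3
      rcases hall q h1 h2 h3 with h4 | h4 | h4 | h4
      · exact absurd ⟨q, h1, h4⟩ e01
      · exact Or.inl h4
      · exact Or.inr (Or.inl (h4.trans (Set.pair_comm _ _)))
      · exact Or.inr (Or.inr h4)

end Vale.Agent.P032.H338
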