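import Vale.Agent.P032.H338.FiveB
import Vale.Agent.P032.H383.Letters
import Vale.Agent.P032.S5.H767.Five

/-!
# P032: the flip of a five coloured point of triangle type, local part

Rhombus points `rh z a b = pt z a + pt z b - z` and the sides of a point of order three of the unit
circle at a flip.
-/

open Set Filter Topology Metric

noncomputable section

namespace Vale.Agent.P032.H338

open Vale.Agent.P032.Six Vale.Agent.P032.S5.H767 Vale.Agent.P032.H187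

variable {U : Fin 6 → Set ℂ} {T : ℂ → Set (Fin 6)} {z : ℂ} {a b : ℝ}

/-- fourth vertex of the rhombus `z`, `pt z a`, `pt z b` -/
def rh (z : ℂ) (a b : ℝ) : ℂ := pt z a + pt z b - z

theorem rh_comm (z : ℂ) (a b : ℝ) : rh z a b = rh z b a := by unfold rh; ring

theorem rh_pt (z : ℂ) (a b : ℝ) : rh z a b = pt (pt z a) b := by unfold rh pt; ring

theorem rh_left (z : ℂ) (a b : ℝ) : dist (rh z a b) (pt z a) = 1 := by
  rw [rh_pt]; exact dist_pt _ _

theorem rh_right (z : ℂ) (a b : ℝ) : dist (rh z a b) (pt z b) = 1 := by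
  rw [rh_comm]; exact rh_left z b a

theorem rh_mid (z : ℂ) (a : ℝ) : rh z a (a + 2) = pt z (a + 1) := by
  unfold rh; rw [pt_sum]; ring

theorem rh_opp (z : ℂ) (a : ℝ) : rh z a (a + 3) = z := by
  unfold rh; rw [pt_three]; ring

theorem rh_cont (z : ℂ) : Continuous fun p : ℝ × ℝ => rh z p.1 p.2 := by
  have := continuous_pt z
  unfold rh
  fun_prop

theorem rh_sq (z : ℂ) (a b : ℝ) :
    dist (rh z a b) z ^ 2 = 2 + 2 * Real.cos ((b - a) * (Real.pi / 3)) := by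
  have h1 : rh z a b - z = cis (a * (Real.pi / 3)) + cis (b * (Real.pi / 3)) := by
    unfold rh pt; ring
  rw [dist_eq_norm, h1, Complex.sq_norm, Complex.normSq_apply, Complex.add_re, Complex.add_im,
    cis_re, cis_re, cis_im, cis_im,
    show (b - a) * (Real.pi / 3) = b * (Real.pi / 3) - a * (Real.pi / 3) by ring, Real.cos_sub]
  nlinarith [Real.sin_sq_add_cos_sq (a * (Real.pi / 3)), Real.sin_sq_add_cos_sq (b * (Real.pi / 3))]

theorem cos_two_lt {x : ℝ} (h0 : 0 < x) (h1 : x ≤ 1) :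
    Real.cos ((2 + x) * (Real.pi / 3)) < -(1 / 2) := by
  have hpi := Real.pi_pos
  have h2 : Real.cos ((2 + x) * (Real.pi / 3)) < Real.cos (Real.pi - Real.pi / 3) :=
    Real.cos_lt_cos_of_nonneg_of_le_pi (by linarith) (by nlinarith) (by nlinarith)
  rwa [Real.cos_pi_sub, Real.cos_pi_div_three] at h2

theorem lt_cos_two {x : ℝ} (h0 : 0 < x) (h1 : x ≤ 1) :
    -(1 / 2) < Real.cos ((2 - x) * (Real.pi / 3)) := by
  have hpi := Real.pi_pos
  have h2 : Real.cos (Real.pi - Real.pi / 3) < Real.cos ((2 - x) * (Real.pi / 3)) :=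
    Real.cos_lt_cos_of_nonneg_of_le_pi (by nlinarith) (by linarith) (by nlinarith)
  rwa [Real.cos_pi_sub, Real.cos_pi_div_three] at h2

theorem rh_lt {x : ℝ} (hc : Real.cos ((b - a) * (Real.pi / 3)) = Real.cos ((2 + x) * (Real.pi / 3)))
    (h0 : 0 < x) (h1 : x ≤ 1) : dist (rh z a b) z < 1 := by
  have h2 := rh_sq z a b
  rw [hc] at h2
  have h3 := cos_two_lt h0 h1
  nlinarith [dist_nonneg (x := rh z a b) (y := z)]

theorem rh_gt {x : ℝ} (hc : Real.cos ((b - a) * (Real.pi / 3)) = Real.cos ((2 - x) * (Real.pi / 3)))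
    (h0 : 0 < x) (h1 : x ≤ 1) : 1 < dist (rh z a b) z := by
  have h2 := rh_sq z a b
  rw [hc] at h2
  have h3 := lt_cos_two h0 h1
  by_contra hcon
  push Not at hcon
  nlinarith [dist_nonneg (x := rh z a b) (y := z)]

/-- the germ of the product rule at a rhombus point -/
theorem cr_rh (h : Mx U) {P : Set (Fin 6)} {i : Fin 6} (ha : pt z a ∈ Cr U z P) (hi : i ∈ P)
    (h0 : rh z a b ≠ z) (h2 : dist (rh z a b) z < 2) : i ∉ Pal U (rh z a b) := by
  refine Cr_line h ha hi (by rw [dist_comm]; exact rh_left z a b) h0 fun h3 => ?_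
  have h4 : rh z a b - z = 2 * (pt z a - z) := by linear_combination h3
  rw [dist_eq_norm, h4, norm_mul, ← dist_eq_norm, dist_pt] at h2
  norm_num at h2

theorem cr_rh' (h : Mx U) {P : Set (Fin 6)} {i : Fin 6} (hb : pt z b ∈ Cr U z P) (hi : i ∈ P)
    (h0 : rh z a b ≠ z) (h2 : dist (rh z a b) z < 2) : i ∉ Pal U (rh z a b) := by
  rw [rh_comm] at h0 h2 ⊢
  exact cr_rh h hb hi h0 h2

/-- two pairs of a set of three: at most one colour in the difference -/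
theorem diff_unique {S P Q : Set (Fin 6)} {i j : Fin 6} (hS : S.ncard ≤ 3) (hP : P ⊆ S)
    (hQ : Q ⊆ S) (hP2 : P.ncard = 2) (hi : i ∈ Q) (hi' : i ∉ P) (hj : j ∈ Q) (hj' : j ∉ P) :
    i = j := by
  by_contra hne
  have h1 : Disjoint P {i, j} := by
    rw [Set.disjoint_right]
    rintro m (rfl | rfl)
    · exact hi'
    · exact hj'
  have h2 := Set.ncard_union_eq h1 (Set.toFinite _) (Set.toFinite _)
  rw [Set.ncard_pair hne, hP2] at h2
  have h3 : P ∪ {i, j} ⊆ S := by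
    refine union_subset hP ?_
    rintro m (rfl | rfl)
    · exact hQ hi
    · exact hQ hj
  have := Set.ncard_le_ncard h3 (Set.toFinite _)
  omega

/-- intermediate value -/
theorem ivt_one {g : ℝ → ℝ} (hg : Continuous g) {s1 : ℝ} (h0 : 0 < s1)
    (h1 : (1 < g 0 ∧ g s1 < 1) ∨ (g 0 < 1 ∧ 1 < g s1)) : ∃ s, 0 < s ∧ s < s1 ∧ g s = 1 := by
  rcases h1 with ⟨h1, h2⟩ | ⟨h1, h2⟩
  · obtain ⟨s, hs, h3⟩ := intermediate_value_Icc' h0.le hg.continuousOn
      (show (1 : ℝ) ∈ Icc (g s1) (g 0) from ⟨h2.le, h1.le⟩)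
    refine ⟨s, lt_of_le_of_ne hs.1 ?_, lt_of_le_of_ne hs.2 ?_, h3⟩
    · rintro rfl; linarith
    · rintro rfl; linarith
  · obtain ⟨s, hs, h3⟩ := intermediate_value_Icc h0.le hg.continuousOn
      (show (1 : ℝ) ∈ Icc (g 0) (g s1) from ⟨h1.le, h2.le⟩)
    refine ⟨s, lt_of_le_of_ne hs.1 ?_, lt_of_le_of_ne hs.2 ?_, h3⟩
    · rintro rfl; linarith
    · rintro rfl; linarith

theorem exists_Ioo_of_right {p : ℝ → Prop} (h : ∀ᶠ s in 𝓝[>] (0 : ℝ), p s) :
    ∃ η > 0, ∀ s, 0 < s → s < η → p s := by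
  obtain ⟨η, hη, h1⟩ := mem_nhdsGT_iff_exists_Ioo_subset.1 h
  exact ⟨η, hη, fun s h2 h3 => h1 ⟨h2, h3⟩⟩

/-- near the middle of the rhombus -/
theorem rh_near (h : Irr U T) {x : ℂ} {N : Set (Fin 6)} (hN : T x ⊆ N) {α β : ℝ}
    (hx : rh z α β = x) (hxz : dist x z = 1) :
    ∃ ρ > 0, ∀ t s, |t| < ρ → |s| < ρ →
      T (rh z (α + t) (β + s)) ⊆ N ∧ rh z (α + t) (β + s) ≠ z ∧ dist (rh z (α + t) (β + s)) z < 2 := by
  have h1 : ContinuousAt (fun p : ℝ × ℝ => rh z (α + p.1) (β + p.2)) (0, 0) := by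
    have := rh_cont z
    exact (this.comp (f := fun p : ℝ × ℝ => (α + p.1, β + p.2)) (by fun_prop)).continuousAt
  have h2 : Tendsto (fun p : ℝ × ℝ => rh z (α + p.1) (β + p.2)) (𝓝 (0, 0)) (𝓝 x) := by
    have := h1.tendsto
    simpa [hx] using this
  have h3 : ∀ᶠ w in 𝓝 x, T w ⊆ N ∧ w ≠ z ∧ dist w z < 2 := by
    refine ((h.nhd x).mono fun w hw => hw.trans hN).and ?_
    have h4 : ∀ᶠ w in 𝓝 x, dist w x < 1 := Metric.ball_mem_nhds x one_pos
    filter_upwards [h4] with w hw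
    constructor
    · rintro rfl
      rw [dist_comm, hxz] at hw
      exact lt_irrefl _ hw
    · calc dist w z ≤ dist w x + dist x z := dist_triangle _ _ _
        _ < 2 := by rw [hxz]; linarith
  have h4 := h2.eventually h3
  rw [nhds_prod_eq, Filter.eventually_prod_iff] at h4
  obtain ⟨pa, ha, pb, hb, hab⟩ := h4
  obtain ⟨ρ1, hρ1, k1⟩ := Metric.eventually_nhds_iff.1 ha
  obtain ⟨ρ2, hρ2, k2⟩ := Metric.eventually_nhds_iff.1 hb
  refine ⟨min ρ1 ρ2, lt_min hρ1 hρ2, fun t s ht hs => hab (k1 ?_) (k2 ?_)⟩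
  · rw [Real.dist_eq, sub_zero]; exact ht.trans_le (min_le_left _ _)
  · rw [Real.dist_eq, sub_zero]; exact hs.trans_le (min_le_right _ _)

/-- a moving rhombus point meets the circle about `v` -/
theorem rh_meet {v : ℂ} {α β : ℝ} {s1 : ℝ} (h0 : 0 < s1)
    (h1 : (1 < dist (rh z α β) v ∧ dist (rh z α (β + s1)) v < 1) ∨
      (dist (rh z α β) v < 1 ∧ 1 < dist (rh z α (β + s1)) v)) :
    ∃ s, 0 < s ∧ s < s1 ∧ dist (rh z α (β + s)) v = 1 := by
  have hg : Continuous fun s : ℝ => dist (rh z α (β + s)) v := by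
    have := rh_cont z
    exact (this.comp (f := fun s : ℝ => (α, β + s)) (by fun_prop)).dist continuous_const
  refine ivt_one hg h0 ?_
  simpa using h1

theorem eventually_left_of_cont {g : ℝ → ℝ} (hg : Continuous g) {p : Set ℝ} (hp : IsOpen p)
    (h0 : g 0 ∈ p) : ∀ᶠ t in 𝓝[<] (0 : ℝ), g t ∈ p :=
  (hg.continuousAt.eventually (hp.mem_nhds h0)).filter_mono nhdsWithin_le_nhds

/-- **One side of a point of order three at a flip.**  `x` is the middle of the rhombus at the slots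
`α`, `β`; the slot `β` carries `f` on the right, the slot `α` carries a pair `P` on the left. -/
theorem side_gen (h : Irr U T) {α β : ℝ} {x : ℂ} {f : Fin 6} {Q S : Set (Fin 6)}
    (hQS : Q ⊆ S) (hS : S.ncard ≤ 3) (hx : rh z α β = x) (hxz : dist x z = 1)
    (hT : T x ⊆ insert f Q) (hcl : ∀ᶠ s in 𝓝[>] (0 : ℝ), pt z (β + s) ∈ Cr U z {f})
    {σ : Prop} [Decidable σ]
    (hgeo : ∀ s, 0 < s → s ≤ 1 → if σ then dist (rh z α (β + s)) z < 1 else
      1 < dist (rh z α (β + s)) z) :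
    ∀ᶠ v in 𝓝 z, ∀ i ∈ Q, v ∈ U i → (if σ then 1 < dist x v else dist x v < 1) →
      ∀ᶠ t in 𝓝[<] (0 : ℝ), ∀ P ⊆ S, P.ncard = 2 → pt z (α + t) ∈ Cr U z P → i ∈ P := by
  obtain ⟨ρ, hρ, hN⟩ := rh_near h hT hx hxz
  obtain ⟨η, hη, hcl⟩ := exists_Ioo_of_right hcl
  set s1 : ℝ := min (min ρ η) 1 / 2 with hs1
  have hm : 0 < min (min ρ η) 1 := by positivity
  have h0 : 0 < s1 := by positivity
  have h1 : s1 < ρ := by
    have := (min_le_left (min ρ η) 1).trans (min_le_left ρ η)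
    rw [hs1]; linarith
  have h2 : s1 < η := by
    have := (min_le_left (min ρ η) 1).trans (min_le_right ρ η)
    rw [hs1]; linarith
  have h3 : s1 ≤ 1 := by
    have := min_le_right (min ρ η) 1
    rw [hs1]; linarith
  have hg := hgeo s1 h0 h3
  have hv : ∀ᶠ v in 𝓝 z, if σ then dist (rh z α (β + s1)) v < 1 else
      1 < dist (rh z α (β + s1)) v := by
    have hc : Continuous fun v : ℂ => dist (rh z α (β + s1)) v := continuous_const.dist continuous_id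
    by_cases hσ : σ
    · simp only [hσ, if_true] at hg ⊢
      exact hc.continuousAt.eventually (isOpen_Iio.mem_nhds hg)
    · simp only [hσ, if_false] at hg ⊢
      exact hc.continuousAt.eventually (isOpen_Ioi.mem_nhds hg)
  filter_upwards [hv] with v hv i hi hvi hvx
  -- continuity in `t`
  have c1 : Continuous fun t : ℝ => dist (rh z (α + t) (β + s1)) v := by
    have := rh_cont z
    exact (this.comp (f := fun t : ℝ => (α + t, β + s1)) (by fun_prop)).dist continuous_const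
  have c2 : Continuous fun t : ℝ => dist (rh z (α + t) β) v := by
    have := rh_cont z
    exact (this.comp (f := fun t : ℝ => (α + t, β)) (by fun_prop)).dist continuous_const
  have e0 : ∀ᶠ t in 𝓝[<] (0 : ℝ), t ∈ Ioo (-ρ) ρ :=
    (Ioo_mem_nhds (by linarith) hρ : Ioo (-ρ) ρ ∈ 𝓝 (0 : ℝ)) |> fun hh => nhdsWithin_le_nhds hh
  have e1 : ∀ᶠ t in 𝓝[<] (0 : ℝ), (1 < dist (rh z (α + t) β) v ∧
      dist (rh z (α + t) (β + s1)) v < 1) ∨ (dist (rh z (α + t) β) v < 1 ∧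
      1 < dist (rh z (α + t) (β + s1)) v) := by
    by_cases hσ : σ
    · simp only [hσ, if_true] at hv hvx
      have k1 : ∀ᶠ t in 𝓝[<] (0 : ℝ), dist (rh z (α + t) β) v ∈ Ioi (1 : ℝ) :=
        eventually_left_of_cont c2 isOpen_Ioi (by simpa [hx] using hvx)
      have k2 : ∀ᶠ t in 𝓝[<] (0 : ℝ), dist (rh z (α + t) (β + s1)) v ∈ Iio (1 : ℝ) :=
        eventually_left_of_cont c1 isOpen_Iio (by simpa using hv)
      filter_upwards [k1, k2] with t k1 k2 using Or.inl ⟨k1, k2⟩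
    · simp only [hσ, if_false] at hv hvx
      have k1 : ∀ᶠ t in 𝓝[<] (0 : ℝ), dist (rh z (α + t) β) v ∈ Iio (1 : ℝ) :=
        eventually_left_of_cont c2 isOpen_Iio (by simpa [hx] using hvx)
      have k2 : ∀ᶠ t in 𝓝[<] (0 : ℝ), dist (rh z (α + t) (β + s1)) v ∈ Ioi (1 : ℝ) :=
        eventually_left_of_cont c1 isOpen_Ioi (by simpa using hv)
      filter_upwards [k1, k2] with t k1 k2 using Or.inr ⟨k1, k2⟩
  filter_upwards [e0, e1] with t ht htd P hPS hP2 hPc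
  by_contra hiP
  obtain ⟨s, hs0, hs, hd⟩ := rh_meet h0 htd
  obtain ⟨n1, n2, n3⟩ := hN t s (abs_lt.2 ht) (by rw [abs_of_pos hs0]; linarith)
  obtain ⟨j, hj⟩ := h.ne (rh z (α + t) (β + s))
  have hjf : j ≠ f := by
    rintro rfl
    exact cr_rh' h.mx (hcl s hs0 (by linarith)) (mem_singleton _) n2 n3 (h.sub _ hj)
  have hjP : j ∉ P := fun hjP => cr_rh h.mx hPc hjP n2 n3 (h.sub _ hj)
  have hjQ : j ∈ Q := (n1 hj).resolve_left hjf
  have hij : i = j := diff_unique hS hPS hQS hP2 hi hiP hjQ hjP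
  exact h.mx.free i v hvi _ (h.sub _ (hij ▸ hj)) (by rw [dist_comm]; exact hd)

/-- the pair on the left is not the pair of the point of order three -/
theorem side_ne (h : Irr U T) {α β : ℝ} {x : ℂ} {f : Fin 6} {Q : Set (Fin 6)}
    (hx : rh z α β = x) (hxz : dist x z = 1)
    (hT : T x ⊆ insert f Q) (hcl : ∀ᶠ s in 𝓝[>] (0 : ℝ), pt z (β + s) ∈ Cr U z {f}) :
    ∀ᶠ t in 𝓝[<] (0 : ℝ), ∀ P, pt z (α + t) ∈ Cr U z P → P ≠ Q := by
  obtain ⟨ρ, hρ, hN⟩ := rh_near h hT hx hxz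
  obtain ⟨η, hη, hcl⟩ := exists_Ioo_of_right hcl
  have hm : 0 < min ρ η := by positivity
  have e0 : ∀ᶠ t in 𝓝[<] (0 : ℝ), t ∈ Ioo (-ρ) ρ :=
    (Ioo_mem_nhds (by linarith) hρ : Ioo (-ρ) ρ ∈ 𝓝 (0 : ℝ)) |> fun hh => nhdsWithin_le_nhds hh
  filter_upwards [e0] with t ht P hPc hPQ
  have h1 := min_le_left ρ η
  have h2 := min_le_right ρ η
  obtain ⟨n1, n2, n3⟩ := hN t (min ρ η / 2) (abs_lt.2 ht) (by rw [abs_of_pos (by positivity)]; linarith)
  obtain ⟨j, hj⟩ := h.ne (rh z (α + t) (β + min ρ η / 2))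
  rcases n1 hj with rfl | hjQ
  · exact cr_rh' h.mx (hcl _ (by positivity) (by linarith)) (mem_singleton _) n2 n3 (h.sub _ hj)
  · exact cr_rh h.mx hPc (hPQ ▸ hjQ) n2 n3 (h.sub _ hj)

/-- the conditions at one time on the left: three different pairs, determined by the pairs on the
right -/
theorem six_pairs {S Q1 Q3 Q5 P0 P2 P4 : Set (Fin 6)} (hS : S.ncard = 3)
    (s1 : Q1 ⊆ S) (s3 : Q3 ⊆ S) (s5 : Q5 ⊆ S) (n1 : Q1.ncard = 2) (n3 : Q3.ncard = 2)
    (n5 : Q5.ncard = 2) (t0 : P0 ⊆ S) (t2 : P2 ⊆ S) (t4 : P4 ⊆ S) (m0 : P0.ncard = 2)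
    (m2 : P2.ncard = 2) (m4 : P4.ncard = 2) (a1 : Q1 ⊆ P0 ∪ P2) (a3 : Q3 ⊆ P2 ∪ P4)
    (a5 : Q5 ⊆ P4 ∪ P0) (b01 : P0 ≠ Q1) (b21 : P2 ≠ Q1) (b23 : P2 ≠ Q3) (b43 : P4 ≠ Q3)
    (b45 : P4 ≠ Q5) (b05 : P0 ≠ Q5) : ∃ x y w : Fin 6, x ≠ y ∧ x ≠ w ∧ y ≠ w ∧ S = {x, y, w} ∧
      P0 = {y, w} ∧ P2 = {x, w} ∧ P4 = {x, y} ∧ Q3 = {y, w} ∧ Q5 = {x, w} ∧ Q1 = {x, y} := by
  -- a pair is the complement of a point
  have key : ∀ P : Set (Fin 6), P ⊆ S → P.ncard = 2 → ∃ p ∈ S, P = S \ {p} := by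
    intro P hP hP2
    have h1 : (S \ P).ncard = 1 := by
      have := Set.ncard_sdiff hP (Set.toFinite _)
      omega
    obtain ⟨p, hp⟩ := Set.ncard_eq_one.1 h1
    have hpm : p ∈ S \ P := hp ▸ mem_singleton p
    refine ⟨p, hpm.1, ?_⟩
    rw [← hp, sdiff_sdiff_right_self]
    exact (inter_eq_self_of_subset_right hP).symm
  obtain ⟨p0, hp0, rfl⟩ := key P0 t0 m0
  obtain ⟨p2, hp2, rfl⟩ := key P2 t2 m2
  obtain ⟨p4, hp4, rfl⟩ := key P4 t4 m4
  obtain ⟨q1, hq1, rfl⟩ := key Q1 s1 n1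
  obtain ⟨q3, hq3, rfl⟩ := key Q3 s3 n3
  obtain ⟨q5, hq5, rfl⟩ := key Q5 s5 n5
  have c01 : p0 ≠ q1 := by rintro rfl; exact b01 rfl
  have c21 : p2 ≠ q1 := by rintro rfl; exact b21 rfl
  have c23 : p2 ≠ q3 := by rintro rfl; exact b23 rfl
  have c43 : p4 ≠ q3 := by rintro rfl; exact b43 rfl
  have c45 : p4 ≠ q5 := by rintro rfl; exact b45 rfl
  have c05 : p0 ≠ q5 := by rintro rfl; exact b05 rfl
  have d02 : p0 ≠ p2 := by
    rintro rfl
    rcases a1 ⟨hp0, c01⟩ with h1 | h1 <;> exact h1.2 rfl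
  have d24 : p2 ≠ p4 := by
    rintro rfl
    rcases a3 ⟨hp2, c23⟩ with h1 | h1 <;> exact h1.2 rfl
  have d04 : p0 ≠ p4 := by
    rintro rfl
    rcases a5 ⟨hp0, c05⟩ with h1 | h1 <;> exact h1.2 rfl
  have hSe : S = {p0, p2, p4} := by
    refine (Set.eq_of_subset_of_ncard_le ?_ ?_ (Set.toFinite _)).symm
    · rintro m (rfl | rfl | rfl) <;> assumption
    · rw [hS, Set.ncard_eq_three.2 ⟨p0, p2, p4, d02, d04, d24, rfl⟩]
  have m1 : q1 = p4 := by
    rw [hSe] at hq1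
    rcases hq1 with h1 | h1 | h1
    · exact absurd h1.symm c01
    · exact absurd h1.symm c21
    · exact h1
  have m3 : q3 = p0 := by
    rw [hSe] at hq3
    rcases hq3 with h1 | h1 | h1
    · exact h1
    · exact absurd h1.symm c23
    · exact absurd h1.symm c43
  have m5 : q5 = p2 := by
    rw [hSe] at hq5
    rcases hq5 with h1 | h1 | h1
    · exact absurd h1.symm c05
    · exact h1
    · exact absurd h1.symm c45
  have e0 : S \ {p0} = {p2, p4} := by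
    rw [hSe]; ext m
    simp only [Set.mem_sdiff, mem_insert_iff, mem_singleton_iff]
    constructor
    · rintro ⟨h1 | h1 | h1, h2⟩
      · exact absurd h1 h2
      · exact Or.inl h1
      · exact Or.inr h1
    · rintro (rfl | rfl)
      · exact ⟨Or.inr (Or.inl rfl), d02.symm⟩
      · exact ⟨Or.inr (Or.inr rfl), d04.symm⟩
  have e2 : S \ {p2} = {p0, p4} := by
    rw [hSe]; ext m
    simp only [Set.mem_sdiff, mem_insert_iff, mem_singleton_iff]
    constructor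
    · rintro ⟨h1 | h1 | h1, h2⟩
      · exact Or.inl h1
      · exact absurd h1 h2
      · exact Or.inr h1
    · rintro (rfl | rfl)
      · exact ⟨Or.inl rfl, d02⟩
      · exact ⟨Or.inr (Or.inr rfl), d24.symm⟩
  have e4 : S \ {p4} = {p0, p2} := by
    rw [hSe]; ext m
    simp only [Set.mem_sdiff, mem_insert_iff, mem_singleton_iff]
    constructor
    · rintro ⟨h1 | h1 | h1, h2⟩
      · exact Or.inl h1
      · exact Or.inr h1
      · exact absurd h1 h2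
    · rintro (rfl | rfl)
      · exact ⟨Or.inl rfl, d04⟩
      · exact ⟨Or.inr (Or.inl rfl), d24⟩
  exact ⟨p0, p2, p4, d02, d04, d24, hSe, e0, e2, e4, by rw [m3]; exact e0, by rw [m5]; exact e2,
    by rw [m1]; exact e4⟩

theorem side_in (h : Irr U T) {α : ℝ} {f : Fin 6} {Q S : Set (Fin 6)} (hQS : Q ⊆ S)
    (hS : S.ncard ≤ 3) (hT : T (pt z (α + 1)) ⊆ insert f Q)
    (c2 : ∀ᶠ s in 𝓝[>] (0 : ℝ), pt z (α + 2 + s) ∈ Cr U z {f}) :
    ∀ᶠ v in 𝓝 z, ∀ i ∈ Q, v ∈ U i → 1 < dist (pt z (α + 1)) v →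
      ∀ᶠ t in 𝓝[<] (0 : ℝ), ∀ P ⊆ S, P.ncard = 2 → pt z (α + t) ∈ Cr U z P → i ∈ P := by
  have := side_gen (σ := True) h hQS hS (rh_mid z α) (dist_pt z _) hT c2 (fun s h0 h1 => by
    simp only [if_true]
    exact rh_lt (x := s) (by congr 1; ring) h0 h1)
  simpa only [if_true] using this

theorem side_out (h : Irr U T) {α : ℝ} {f : Fin 6} {Q S : Set (Fin 6)} (hQS : Q ⊆ S)
    (hS : S.ncard ≤ 3) (hT : T (pt z (α + 1)) ⊆ insert f Q)
    (c0 : ∀ᶠ s in 𝓝[>] (0 : ℝ), pt z (α + s) ∈ Cr U z {f}) :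
    ∀ᶠ v in 𝓝 z, ∀ i ∈ Q, v ∈ U i → dist (pt z (α + 1)) v < 1 →
      ∀ᶠ t in 𝓝[<] (0 : ℝ), ∀ P ⊆ S, P.ncard = 2 → pt z (α + 2 + t) ∈ Cr U z P → i ∈ P := by
  have := side_gen (σ := False) h hQS hS (by rw [rh_comm]; exact rh_mid z α) (dist_pt z _) hT c0
    (fun s h0 h1 => by
      simp only [if_false]
      exact rh_gt (x := s) (by rw [← Real.cos_neg]; congr 1; ring) h0 h1)
  simpa only [if_false] using this

/-- both sides -/
theorem cover_pair (h : Irr U T) {α : ℝ} {f : Fin 6} {Q S : Set (Fin 6)} (hQS : Q ⊆ S)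
    (hS : S.ncard ≤ 3) (hSz : S ⊆ T z) (hT : T (pt z (α + 1)) = insert f Q)
    (c0 : ∀ᶠ s in 𝓝[>] (0 : ℝ), pt z (α + s) ∈ Cr U z {f})
    (c2 : ∀ᶠ s in 𝓝[>] (0 : ℝ), pt z (α + 2 + s) ∈ Cr U z {f}) :
    ∀ᶠ t in 𝓝[<] (0 : ℝ), ∀ P P', P ⊆ S → P.ncard = 2 → P' ⊆ S → P'.ncard = 2 →
      pt z (α + t) ∈ Cr U z P → pt z (α + 2 + t) ∈ Cr U z P' →
      Q ⊆ P ∪ P' ∧ P ≠ Q ∧ P' ≠ Q := by
  have k1 := side_in h hQS hS hT.subset c2
  have k2 := side_out h hQS hS hT.subset c0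
  have k3 : ∀ i ∈ Q, ∀ᶠ t in 𝓝[<] (0 : ℝ), ∀ P P', P ⊆ S → P.ncard = 2 → P' ⊆ S →
      P'.ncard = 2 → pt z (α + t) ∈ Cr U z P → pt z (α + 2 + t) ∈ Cr U z P' → i ∈ P ∪ P' := by
    intro i hi
    obtain ⟨v, hv, h1, h2⟩ := ((h.pure z i (hSz (hQS hi))).and_eventually (k1.and k2)).exists
    have hvi : v ∈ U i := h.mem_of_single hv.subset
    have hne : dist v (pt z (α + 1)) ≠ 1 :=
      h.mx.free i v hvi _ (h.sub _ (by rw [hT]; exact Or.inr hi))
    rcases lt_or_gt_of_ne hne with h3 | h3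
    · filter_upwards [h2 i hi hvi (by rw [dist_comm]; exact h3)] with t ht P P' _ _ e3 e4 _ e6
      exact Or.inr (ht P' e3 e4 e6)
    · filter_upwards [h1 i hi hvi (by rw [dist_comm]; exact h3)] with t ht P P' e1 e2 _ _ e5 _
      exact Or.inl (ht P e1 e2 e5)
  have k4 : ∀ᶠ t in 𝓝[<] (0 : ℝ), ∀ i : Fin 6, i ∈ Q → ∀ P P', P ⊆ S → P.ncard = 2 → P' ⊆ S →
      P'.ncard = 2 → pt z (α + t) ∈ Cr U z P → pt z (α + 2 + t) ∈ Cr U z P' → i ∈ P ∪ P' := by
    refine eventually_all.2 fun i => ?_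
    by_cases hi : i ∈ Q
    · filter_upwards [k3 i hi] with t ht _ using ht
    · exact Eventually.of_forall fun t hi' => absurd hi' hi
  filter_upwards [k4, side_ne h (rh_mid z α) (dist_pt z _) hT.subset c2,
    side_ne h (by rw [rh_comm]; exact rh_mid z α) (dist_pt z _) hT.subset c0]
    with t h1 h2 h3 P P' e1 e2 e3 e4 e5 e6
  exact ⟨fun i hi => h1 i hi P P' e1 e2 e3 e4 e5 e6, h2 P e5, h3 P' e6⟩

/-- right limits of moving rhombus points -/
theorem rh_tendsto (z : ℂ) (α β : ℝ) :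
    Tendsto (fun s : ℝ => rh z α (β + s)) (𝓝[>] (0 : ℝ)) (𝓝 (rh z α β)) := by
  have h1 : Continuous fun s : ℝ => rh z α (β + s) := by
    have := rh_cont z
    exact this.comp (f := fun s : ℝ => (α, β + s)) (by fun_prop)
  have h2 := h1.tendsto 0
  rw [add_zero] at h2
  exact h2.mono_left nhdsWithin_le_nhds

/-- a silent colour on a moving rhombus point: `x1` has order three, palette `insert f Q1`, the slot
`β` carries `Q2` on the right, `Q1 ∪ Q2 = S` -/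
theorem silent_mem (h : Irr U T) {α β : ℝ} {x : ℂ} {f : Fin 6} {Q1 Q2 S : Set (Fin 6)}
    (hx : rh z α β = x) (hxz : dist x z = 1)
    (hT : T (pt z α) = insert f Q1) (h3 : (T (pt z α)).ncard ≤ 3)
    (hcl : ∀ᶠ s in 𝓝[>] (0 : ℝ), pt z (β + s) ∈ Cr U z Q2) (hS : S ⊆ Q1 ∪ Q2) (hz : ∀ i, i ≠ f → i ∈ T z) :
    ∀ᶠ s in 𝓝[>] (0 : ℝ), ∃ i ∈ T (rh z α (β + s)), i ∈ T z \ S := by
  have h1 : ∀ᶠ w in 𝓝 x, w ≠ z ∧ dist w z < 2 := by
    filter_upwards [Metric.ball_mem_nhds x one_pos] with w hw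
    have hw : dist w x < 1 := hw
    constructor
    · rintro rfl
      rw [dist_comm, hxz] at hw
      exact lt_irrefl _ hw
    · calc dist w z ≤ dist w x + dist x z := dist_triangle _ _ _
        _ < 2 := by rw [hxz]; linarith
  have h2 := (rh_tendsto z α β).eventually (hx ▸ h1)
  filter_upwards [h2, hcl] with s h4 h5
  obtain ⟨i, hi, hi'⟩ := h.not_sub' (rh_left z α (β + s)) h3
  refine ⟨i, hi, ?_, fun hiS => ?_⟩
  · refine hz i ?_
    rintro rfl
    exact hi' (by rw [hT]; exact Or.inl rfl)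
  · rcases hS hiS with h6 | h6
    · exact hi' (by rw [hT]; exact Or.inr h6)
    · exact cr_rh' h.mx h5 h6 h4.1 h4.2 (h.sub _ hi)

theorem rh_pos (z : ℂ) {a b x : ℝ}
    (hc : Real.cos ((b - a) * (Real.pi / 3)) = -Real.cos (x * (Real.pi / 3))) (h0 : 0 < x)
    (h1 : x ≤ 1) : rh z a b ≠ z ∧ dist (rh z a b) z < 2 := by
  have hpi := Real.pi_pos
  have h2 := rh_sq z a b
  rw [hc] at h2
  have h3 : Real.cos (x * (Real.pi / 3)) < 1 := by
    have := Real.cos_lt_cos_of_nonneg_of_le_pi (x := 0) (y := x * (Real.pi / 3)) le_rfl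
      (by nlinarith) (by positivity)
    rwa [Real.cos_zero] at this
  have h4 : 0 < Real.cos (x * (Real.pi / 3)) :=
    Real.cos_pos_of_mem_Ioo ⟨by nlinarith, by nlinarith⟩
  constructor
  · intro h5
    rw [h5, dist_self] at h2
    norm_num at h2
    linarith
  · nlinarith [dist_nonneg (x := rh z a b) (y := z)]

theorem pt_sq (z : ℂ) (a b : ℝ) :
    dist (pt z b) (pt z a) ^ 2 = 2 - 2 * Real.cos ((b - a) * (Real.pi / 3)) := by
  have h1 : pt z b - pt z a = cis (b * (Real.pi / 3)) - cis (a * (Real.pi / 3)) := by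
    unfold pt; ring
  rw [dist_eq_norm, h1, Complex.sq_norm, Complex.normSq_apply, Complex.sub_re, Complex.sub_im,
    cis_re, cis_re, cis_im, cis_im,
    show (b - a) * (Real.pi / 3) = b * (Real.pi / 3) - a * (Real.pi / 3) by ring, Real.cos_sub]
  nlinarith [Real.sin_sq_add_cos_sq (a * (Real.pi / 3)), Real.sin_sq_add_cos_sq (b * (Real.pi / 3))]

/-- distance of the arc of `S(pt z a)` near `z` to `pt z (a + 1)` -/
theorem rh_far (z : ℂ) {a x : ℝ} (h0 : 0 < x) (h1 : x ≤ 1) :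
    1 < dist (rh z a (a + 3 + x)) (pt z (a + 1)) := by
  have hpi := Real.pi_pos
  have h2 : rh z a (a + 3 + x) - pt z (a + 1) = pt z (a + 3 + x) - pt z (a + 2) := by
    unfold rh
    linear_combination pt_sum z a
  have h3 := pt_sq z (a + 2) (a + 3 + x)
  rw [dist_eq_norm, ← h2, ← dist_eq_norm, show a + 3 + x - (a + 2) = 1 + x by ring] at h3
  have h4 : Real.cos ((1 + x) * (Real.pi / 3)) < 1 / 2 := by
    rw [← Real.cos_pi_div_three]
    exact Real.cos_lt_cos_of_nonneg_of_le_pi (by positivity) (by nlinarith) (by nlinarith)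
  by_contra hcon
  push Not at hcon
  nlinarith [dist_nonneg (x := rh z a (a + 3 + x)) (y := pt z (a + 1))]

/-- `pt z (a + 6 + s)` -/
theorem pt_six' (z : ℂ) (a s : ℝ) : pt z (a + 6 + s) = pt z (a + s) := by
  rw [show a + 6 + s = a + s + 6 by ring, pt_six]

/-- **No flip**, local form.  At the time `u` the slots `1, 3, 5` have order three; on the right the
slots `0, 2, 4` carry `f`, the slots `1, 3, 5` carry the pairs `Q1`, `Q3`, `Q5` of `S`; on the left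
there are arbitrarily near times with pairs of `S` at the slots `0, 2, 4`. -/
theorem flip_false (h : Irr U T) {u : ℝ} {f : Fin 6} {S Q1 Q3 Q5 : Set (Fin 6)}
    (h5 : (T z).ncard = 5) (hf : f ∉ T z) (hSz : S ⊆ T z) (hS : S.ncard = 3)
    (s1 : Q1 ⊆ S) (s3 : Q3 ⊆ S) (s5 : Q5 ⊆ S) (n1 : Q1.ncard = 2) (n3 : Q3.ncard = 2)
    (n5 : Q5.ncard = 2) (T1 : T (pt z (u + 1)) = insert f Q1) (T3 : T (pt z (u + 3)) = insert f Q3)
    (T5 : T (pt z (u + 5)) = insert f Q5)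
    (c0 : ∀ᶠ s in 𝓝[>] (0 : ℝ), pt z (u + s) ∈ Cr U z {f})
    (c2 : ∀ᶠ s in 𝓝[>] (0 : ℝ), pt z (u + 2 + s) ∈ Cr U z {f})
    (c4 : ∀ᶠ s in 𝓝[>] (0 : ℝ), pt z (u + 4 + s) ∈ Cr U z {f})
    (c1 : ∀ᶠ s in 𝓝[>] (0 : ℝ), pt z (u + 1 + s) ∈ Cr U z Q1)
    (c3 : ∀ᶠ s in 𝓝[>] (0 : ℝ), pt z (u + 3 + s) ∈ Cr U z Q3)
    (c5 : ∀ᶠ s in 𝓝[>] (0 : ℝ), pt z (u + 5 + s) ∈ Cr U z Q5)
    (hl : ∃ᶠ t in 𝓝[<] (0 : ℝ), ∃ P0 P2 P4 : Set (Fin 6), (P0 ⊆ S ∧ P0.ncard = 2 ∧
      pt z (u + t) ∈ Cr U z P0) ∧ (P2 ⊆ S ∧ P2.ncard = 2 ∧ pt z (u + 2 + t) ∈ Cr U z P2) ∧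
      (P4 ⊆ S ∧ P4.ncard = 2 ∧ pt z (u + 4 + t) ∈ Cr U z P4)) : False := by
  have hS' : S.ncard ≤ 3 := hS.le
  have hfS : f ∉ S := fun hh => hf (hSz hh)
  have hz : ∀ i, i ≠ f → i ∈ T z := by
    intro i hi
    by_contra hiz
    have h1 : (insert f (insert i (T z))).ncard = 7 := by
      rw [Set.ncard_insert_of_notMem (by simpa [hi.symm] using hf), Set.ncard_insert_of_notMem hiz, h5]
    have h2 := Set.ncard_le_ncard (subset_univ (insert f (insert i (T z)))) (Set.toFinite _)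
    have h4 : (univ : Set (Fin 6)).ncard = 6 := by rw [Set.ncard_univ, Nat.card_eq_fintype_card]; rfl
    omega
  have c6 : ∀ᶠ s in 𝓝[>] (0 : ℝ), pt z (u + 4 + 2 + s) ∈ Cr U z {f} := by
    filter_upwards [c0] with s hs
    rw [show u + 4 + 2 + s = u + 6 + s by ring, pt_six']; exact hs
  have T3' : T (pt z (u + 2 + 1)) = insert f Q3 := by
    rw [show u + 2 + 1 = u + 3 by ring]; exact T3
  have T5' : T (pt z (u + 4 + 1)) = insert f Q5 := by
    rw [show u + 4 + 1 = u + 5 by ring]; exact T5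
  have c4' : ∀ᶠ s in 𝓝[>] (0 : ℝ), pt z (u + 2 + 2 + s) ∈ Cr U z {f} := by
    filter_upwards [c4] with s hs
    rw [show u + 2 + 2 + s = u + 4 + s by ring]; exact hs
  -- the pairs on the left
  have hl' : ∃ᶠ t in 𝓝[<] (0 : ℝ), ∃ x y w : Fin 6, x ≠ y ∧ x ≠ w ∧ y ≠ w ∧ S = {x, y, w} ∧
      Q3 = {y, w} ∧ Q5 = {x, w} ∧ Q1 = {x, y} ∧ pt z (u + t) ∈ Cr U z {y, w} := by
    refine (hl.and_eventually ((cover_pair h s1 hS' hSz T1 c0 c2).and
      ((cover_pair h s3 hS' hSz T3' c2 c4').and (cover_pair h s5 hS' hSz T5' c4 c6)))).mono ?_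
    rintro t ⟨⟨P0, P2, P4, ⟨a0, b0, d0⟩, ⟨a2, b2, d2⟩, a4, b4, d4⟩, k1, k3, k5⟩
    obtain ⟨e1, e2, e3⟩ := k1 P0 P2 a0 b0 a2 b2 d0 d2
    obtain ⟨e4, e5, e6⟩ := k3 P2 P4 a2 b2 a4 b4 d2
      (by rw [show u + 2 + 2 + t = u + 4 + t by ring]; exact d4)
    obtain ⟨e7, e8, e9⟩ := k5 P4 P0 a4 b4 a0 b0 d4
      (by rw [show u + 4 + 2 + t = u + 6 + t by ring, pt_six']; exact d0)
    obtain ⟨x, y, w, f1, f2, f3, f4, f5, f6, f7, f8, f9, f10⟩ := six_pairs hS s1 s3 s5 n1 n3 n5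
      a0 a2 a4 b0 b2 b4 e1 e4 e7 e2 e3 e5 e6 e8 e9
    exact ⟨x, y, w, f1, f2, f3, f4, f8, f9, f10, f5 ▸ d0⟩
  obtain ⟨-, x, y, w, hxy, hxw, hyw, hSe, rfl, rfl, rfl, -⟩ := hl'.exists
  -- the colour `x` near `z` lives in the closed disc of `pt z (u + 1)`
  have hP : ∃ᶠ t in 𝓝[<] (0 : ℝ), pt z (u + t) ∈ Cr U z {y, w} := by
    refine hl'.mono ?_
    rintro t ⟨x', y', w', -, -, -, -, e1, -, -, e2⟩
    rw [e1]; exact e2
  have H1 : ∀ᶠ v in 𝓝 z, v ∈ U x → dist (pt z (u + 1)) v ≤ 1 := by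
    filter_upwards [side_in h s1 hS' T1.subset c2] with v hv hvx
    by_contra hcon
    push Not at hcon
    obtain ⟨t, h1, h2⟩ := (hP.and_eventually (hv x (Or.inl rfl) hvx hcon)).exists
    rcases h2 {y, w} s3 n3 h1 with h3 | h3
    · exact hxy h3
    · exact hxw h3
  -- the arc of `S(pt z u)` near `z`
  have hsm : ∀ᶠ s in 𝓝[>] (0 : ℝ), 0 < s ∧ s ≤ 1 := by
    filter_upwards [self_mem_nhdsWithin, Ioo_mem_nhdsGT (show (0 : ℝ) < 1 from one_pos)] with s h1 h2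
    exact ⟨h1, h2.2.le⟩
  have hw0 : Tendsto (fun s : ℝ => rh z u (u + 3 + s)) (𝓝[>] (0 : ℝ)) (𝓝 z) := by
    have := rh_tendsto z u (u + 3)
    rwa [rh_opp] at this
  have hA : ∀ᶠ s in 𝓝[>] (0 : ℝ), T (rh z u (u + 3 + s)) ⊆ T z \ S := by
    filter_upwards [hw0.eventually (h.nhd z), hw0.eventually (eventually_eventually_nhds.2 H1), hsm,
      c3] with s k1 k2 ⟨k3, k3'⟩ k4 i hi
    refine ⟨k1 hi, fun hiS => ?_⟩
    obtain ⟨n2, n3'⟩ := rh_pos z (a := u) (b := u + 3 + s) (x := s) (by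
      rw [show (u + 3 + s - u) * (Real.pi / 3) = s * (Real.pi / 3) + Real.pi by ring,
        Real.cos_add_pi]) k3 k3'
    rw [hSe] at hiS
    rcases hiS with rfl | hiS
    · -- the colour `x`
      have h1 := rh_far z (a := u) k3 k3'
      have h2 : ∀ᶠ v in 𝓝 (rh z u (u + 3 + s)), 1 < dist (pt z (u + 1)) v := by
        have hc : Continuous fun v : ℂ => dist (pt z (u + 1)) v :=
          continuous_const.dist continuous_id
        exact hc.continuousAt.eventually (isOpen_Ioi.mem_nhds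
          (show 1 < dist (pt z (u + 1)) _ by rw [dist_comm]; exact h1))
      obtain ⟨v, hv, h3, h4⟩ := ((h.pure _ i hi).and_eventually (k2.and h2)).exists
      exact absurd (h3 (h.mem_of_single hv.subset)) (not_le.2 h4)
    · exact cr_rh' h.mx k4 hiS n2 n3' (h.sub _ hi)
  -- the silent colours at `pt z u`
  have hx0 : rh z (u + 5) (u + 1) = pt z u := by
    have h1 := rh_mid z (u - 1)
    have h2 : pt z (u + 5) = pt z (u - 1) := by
      rw [show u + 5 = u - 1 + 6 by ring, pt_six]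
    unfold rh at h1 ⊢
    rw [h2]
    rwa [show u - 1 + 2 = u + 1 by ring, show u - 1 + 1 = u by ring] at h1
  have hx0' : rh z (u + 1) (u + 5) = pt z u := by rw [rh_comm]; exact hx0
  have hf1 : f ∉ ({x, y} : Set (Fin 6)) := fun hh => hfS (s1 hh)
  have m1 : (T (pt z (u + 1))).ncard ≤ 3 := by
    rw [T1, Set.ncard_insert_of_notMem hf1, n1]
  have m5 : (T (pt z (u + 5))).ncard ≤ 3 := by
    rw [T5, Set.ncard_insert_of_notMem (fun hh => hfS (s5 hh)), n5]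
  have hDc : (T z \ S).ncard = 2 := by
    rw [Set.ncard_sdiff hSz (Set.toFinite _), h5, hS]
  have hD : ∀ d ∈ T z \ S, d ∈ T (pt z u) := by
    intro d hd
    by_contra hdn
    obtain ⟨e, hde⟩ : ∃ e, ∀ i ∈ T z \ S, i ≠ d → i = e := by
      obtain ⟨p, q, -, hpq⟩ := Set.ncard_eq_two.1 hDc
      rw [hpq] at hd ⊢
      rcases hd with rfl | rfl
      · exact ⟨q, fun i hi hne => hi.resolve_left hne⟩
      · exact ⟨p, fun i hi hne => hi.resolve_right hne⟩
    have e1 : ∀ᶠ s in 𝓝[>] (0 : ℝ), e ∈ T (rh z (u + 1) (u + 5 + s)) ∧ e ∈ T (pt z u) ∧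
        e ∈ T z := by
      filter_upwards [silent_mem (S := S) h hx0' (dist_pt z _) T1 m1 c5 (by rw [hSe]; intro m; simp; tauto) hz,
        (rh_tendsto z (u + 1) (u + 5)).eventually (h.nhd _)] with s ⟨i, h1, h2⟩ h3
      rw [hx0'] at h3
      have h4 : i ≠ d := by rintro rfl; exact hdn (h3 h1)
      have h5 := hde i h2 h4
      exact ⟨h5 ▸ h1, h5 ▸ h3 h1, h5 ▸ h2.1⟩
    have e2 : ∀ᶠ s in 𝓝[>] (0 : ℝ), e ∈ T (rh z (u + 5) (u + 1 + s)) := by
      filter_upwards [silent_mem (S := S) h hx0 (dist_pt z _) T5 m5 c1 (by rw [hSe]; intro m; simp; tauto) hz,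
        (rh_tendsto z (u + 5) (u + 1)).eventually (h.nhd _)] with s ⟨i, h1, h2⟩ h3
      rw [hx0] at h3
      have h4 : i ≠ d := by rintro rfl; exact hdn (h3 h1)
      exact hde i h2 h4 ▸ h1
    obtain ⟨η, hη, e3⟩ := exists_Ioo_of_right (e1.and e2)
    set s1 : ℝ := min η 1 / 2 with hs1
    have hm : 0 < min η 1 := by positivity
    have g0 : 0 < s1 := by positivity
    have g1 : s1 < η := by have := min_le_left η 1; rw [hs1]; linarith
    have g2 : s1 ≤ 1 := by have := min_le_right η 1; rw [hs1]; linarith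
    obtain ⟨⟨-, e4, e5⟩, -⟩ := e3 s1 g0 g1
    have k1 : 1 < dist (rh z (u + 1) (u + 5 + s1)) z := by
      refine rh_gt (x := s1) ?_ g0 g2
      rw [show (u + 5 + s1 - (u + 1)) * (Real.pi / 3) = -((2 - s1) * (Real.pi / 3)) + 2 * Real.pi by
        ring, Real.cos_add_two_pi, Real.cos_neg]
    have k2 : dist (rh z (u + 5) (u + 1 + s1)) z < 1 := by
      refine rh_lt (x := s1) ?_ g0 g2
      rw [← Real.cos_add_two_pi ((u + 1 + s1 - (u + 5)) * (Real.pi / 3))]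
      congr 1; ring
    have k3 : ∀ᶠ v in 𝓝 z, 1 < dist (rh z (u + 1) (u + 5 + s1)) v ∧
        dist (rh z (u + 5) (u + 1 + s1)) v < 1 := by
      have hc1 : Continuous fun v : ℂ => dist (rh z (u + 1) (u + 5 + s1)) v :=
        continuous_const.dist continuous_id
      have hc2 : Continuous fun v : ℂ => dist (rh z (u + 5) (u + 1 + s1)) v :=
        continuous_const.dist continuous_id
      exact (hc1.continuousAt.eventually (isOpen_Ioi.mem_nhds k1)).and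
        (hc2.continuousAt.eventually (isOpen_Iio.mem_nhds k2))
    obtain ⟨v, hv, k4, k5⟩ := ((h.pure z e e5).and_eventually k3).exists
    have hve : v ∈ U e := h.mem_of_single hv.subset
    have hne : dist v (pt z u) ≠ 1 := h.mx.free e v hve _ (h.sub _ e4)
    rcases lt_or_gt_of_ne hne with k6 | k6
    · obtain ⟨s, a1, a2, a3⟩ := rh_meet (z := z) (v := v) (α := u + 1) (β := u + 5) g0
        (Or.inr ⟨by rw [hx0', dist_comm]; exact k6, k4⟩)
      exact h.mx.free e v hve _ (h.sub _ (e3 s a1 (a2.trans g1)).1.1) (by rw [dist_comm]; exact a3)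
    · obtain ⟨s, a1, a2, a3⟩ := rh_meet (z := z) (v := v) (α := u + 5) (β := u + 1) g0
        (Or.inl ⟨by rw [hx0, dist_comm]; exact k6, k5⟩)
      exact h.mx.free e v hve _ (h.sub _ (e3 s a1 (a2.trans g1)).2) (by rw [dist_comm]; exact a3)
  -- the arc of `S(pt z u)` carries the silent pair
  have hA2 : ∀ᶠ s in 𝓝[>] (0 : ℝ), T z \ S ⊆ T (rh z u (u + 3 + s)) := by
    filter_upwards [hA] with s hs d hd
    by_contra hdn
    obtain ⟨e, hde⟩ : ∃ e, e ∈ T z \ S ∧ ∀ i ∈ T z \ S, i ≠ d → i = e := by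
      obtain ⟨p, q, -, hpq⟩ := Set.ncard_eq_two.1 hDc
      rw [hpq] at hd ⊢
      rcases hd with rfl | rfl
      · exact ⟨q, Or.inr rfl, fun i hi hne => hi.resolve_left hne⟩
      · exact ⟨p, Or.inl rfl, fun i hi hne => hi.resolve_right hne⟩
    have h1 : T (rh z u (u + 3 + s)) ⊆ {e} := by
      intro i hi
      exact hde.2 i (hs hi) (by rintro rfl; exact hdn hi)
    exact h.mx.free e _ (h.mem_of_single h1) _ (h.sub _ (hD e hde.1)) (rh_left z u _)
  obtain ⟨η, hη, e3⟩ := exists_Ioo_of_right hA2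
  have hCr : ∀ s, 0 < s → s < η → rh z u (u + 3 + s) ∈ Cr U (pt z u) (T z \ S) := by
    intro s h1 h2
    rw [rh_pt]
    refine Cr_of_T h (dist_pt _ _) (ev_circle _ ?_)
    have h3 : Ioo (u + 3) (u + 3 + η) ∈ 𝓝 (u + 3 + s) := Ioo_mem_nhds (by linarith) (by linarith)
    filter_upwards [h3] with t ht
    have h4 := e3 (t - (u + 3)) (by linarith [ht.1]) (by linarith [ht.2])
    rwa [show u + 3 + (t - (u + 3)) = t by ring, rh_pt] at h4
  have hv0 : Tendsto (fun s : ℝ => rh z (u + 1) (u + 3 + s)) (𝓝[>] (0 : ℝ)) (𝓝 (pt z (u + 2))) := by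
    have h1 := rh_tendsto z (u + 1) (u + 3)
    have h2 := rh_mid z (u + 1)
    rw [show u + 1 + 2 = u + 3 by ring, show u + 1 + 1 = u + 2 by ring] at h2
    rwa [h2] at h1
  have hne1 : ∀ᶠ s in 𝓝[>] (0 : ℝ), rh z (u + 1) (u + 3 + s) ≠ pt z u := by
    refine hv0.eventually (isOpen_compl_singleton.mem_nhds ?_)
    intro h1
    have h1 : pt z (u + 2) = pt z u := h1
    have h2 := pt_sq z (u + 2) u
    rw [h1, dist_self, show (u - (u + 2)) * (Real.pi / 3) = -(Real.pi - Real.pi / 3) by ring,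
      Real.cos_neg, Real.cos_pi_sub, Real.cos_pi_div_three] at h2
    norm_num at h2
  have hne2 : ∀ᶠ s in 𝓝[>] (0 : ℝ), rh z (u + 1) (u + 3 + s) + pt z u - 2 * rh z u (u + 3 + s) ≠ 0 := by
    have h1 : Tendsto (fun s : ℝ => rh z (u + 1) (u + 3 + s) + pt z u - 2 * rh z u (u + 3 + s))
        (𝓝[>] (0 : ℝ)) (𝓝 (pt z (u + 2) + pt z u - 2 * z)) :=
      (hv0.add_const _).sub (hw0.const_mul 2)
    refine h1.eventually (isOpen_compl_singleton.mem_nhds ?_)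
    intro h2
    have h2 : pt z (u + 2) + pt z u - 2 * z = 0 := h2
    have h3 := pt_sum z u
    have h4 := dist_pt z (u + 1)
    have h5 : pt z (u + 1) = z := by linear_combination h2 - h3
    rw [h5, dist_self] at h4
    exact zero_ne_one h4
  have hx2 : rh z (u + 1) (u + 3) = pt z (u + 2) := by
    have h2 := rh_mid z (u + 1)
    rwa [show u + 1 + 2 = u + 3 by ring, show u + 1 + 1 = u + 2 by ring] at h2
  have hev : ∀ᶠ s in 𝓝[>] (0 : ℝ), s < η :=
    nhdsWithin_le_nhds (Iio_mem_nhds hη)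
  obtain ⟨s, ⟨i, h1, h2⟩, h3, h4, h5, h6⟩ := ((silent_mem (S := S) h hx2 (dist_pt z _) T1 m1 c3
    (by rw [hSe]; intro m; simp; tauto) hz).and (hne1.and (hne2.and (hev.and hsm)))).exists
  refine Cr_line h.mx (hCr s h6.1 h5) h2 ?_ h3 ?_ (h.sub _ h1)
  · have h7 := dist_pt_one z u
    rw [dist_eq_norm] at h7 ⊢
    rw [show rh z u (u + 3 + s) - rh z (u + 1) (u + 3 + s) = pt z u - pt z (u + 1) by
      unfold rh; ring]
    exact h7
  · intro h7
    exact h4 (by linear_combination h7)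

end Vale.Agent.P032.H338
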